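import Vale.Agent.P192.H524.Real

/-!
# P192: bijections of the circle with finitely many discontinuities
-/

namespace Vale.Agent.P192.H524

open Set PM

theorem fpb_of_inj {A B : Type*} [Group A] [Group B] (φ : A →* B) (hφ : Function.Injective φ)
    (h : FPB B) : FPB A := by
  intro Γ _ h1 h2 f
  have hfin : Finite (φ.comp f).range := h Γ h1 h2 (φ.comp f)
  refine Finite.of_injective (fun x : f.range => (⟨φ x, ?_⟩ : (φ.comp f).range)) ?_
  · obtain ⟨y, hy⟩ := x.2
    exact ⟨y, by simp [hy]⟩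
  · intro x y hxy
    exact Subtype.ext (hφ (congrArg Subtype.val hxy))

/-- the unit circle cut open at `0` and extended by the identity -/
noncomputable def circHom : Equiv.Perm (AddCircle (1 : ℝ)) →* Equiv.Perm ℝ :=
  (Equiv.Perm.ofSubtype (p := fun x : ℝ => x ∈ Ico (0 : ℝ) (0 + 1))).comp
    (AddCircle.equivIco (1 : ℝ) 0).permCongrHom.toMonoidHom

theorem circHom_mem (g : Equiv.Perm (AddCircle (1 : ℝ))) {x : ℝ} (hx : x ∈ Ico (0 : ℝ) (0 + 1)) :
    circHom g x = (AddCircle.equivIco (1 : ℝ) 0 (g (x : AddCircle (1 : ℝ))) : ℝ) := by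
  unfold circHom
  simp only [MonoidHom.comp_apply]
  rw [Equiv.Perm.ofSubtype_apply_of_mem _ hx]
  rfl

theorem circHom_not (g : Equiv.Perm (AddCircle (1 : ℝ))) {x : ℝ} (hx : x ∉ Ico (0 : ℝ) (0 + 1)) :
    circHom g x = x := by
  unfold circHom
  simp only [MonoidHom.comp_apply]
  exact Equiv.Perm.ofSubtype_apply_of_not_mem _ hx

theorem circHom_inj : Function.Injective circHom :=
  (Equiv.Perm.ofSubtype_injective).comp
    (AddCircle.equivIco (1 : ℝ) 0).permCongrHom.injective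

theorem circ_finite (g : Equiv.Perm (AddCircle (1 : ℝ)))
    (hg : {x | ¬ ContinuousAt g x}.Finite) : {x | ¬ ContinuousAt (circHom g) x}.Finite := by
  have hfin : ({x : ℝ | x ∈ Ico (0 : ℝ) (0 + 1) ∧
      (x : AddCircle (1 : ℝ)) ∈ {y | ¬ ContinuousAt g y} ∪ {g.symm 0}}).Finite := by
    refine Finite.of_finite_image ((hg.union (finite_singleton (g.symm 0))).subset ?_)
      (f := fun x : ℝ => (x : AddCircle (1 : ℝ))) ?_
    · rintro _ ⟨x, hx, rfl⟩
      exact hx.2
    · intro x hx y hy hxy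
      have h1 := congrArg Subtype.val (AddCircle.equivIco_coe_eq (p := (1 : ℝ)) (a := 0) hx.1)
      have h2 := congrArg Subtype.val (AddCircle.equivIco_coe_eq (p := (1 : ℝ)) (a := 0) hy.1)
      have h3 : (x : AddCircle (1 : ℝ)) = (y : AddCircle (1 : ℝ)) := hxy
      have h4 := congrArg (fun z => (AddCircle.equivIco (1 : ℝ) 0 z : ℝ)) h3
      exact h1.symm.trans (h4.trans h2)
  refine (hfin.union (finite_singleton (0 : ℝ) |>.union (finite_singleton (1 : ℝ)))).subset ?_
  intro x hx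
  by_contra hcon
  simp only [mem_union, not_or, mem_ofPred_eq, mem_singleton_iff] at hcon
  obtain ⟨h1, h0, h1'⟩ := hcon
  apply hx
  by_cases hm : x ∈ Ioo (0 : ℝ) 1
  · have hm' : x ∈ Ico (0 : ℝ) (0 + 1) := ⟨hm.1.le, by rw [zero_add]; exact hm.2⟩
    have h2 : ContinuousAt g (x : AddCircle (1 : ℝ)) := by
      by_contra h
      exact h1 ⟨hm', Or.inl h⟩
    have h3 : g (x : AddCircle (1 : ℝ)) ≠ ((0 : ℝ) : AddCircle (1 : ℝ)) := by
      intro h
      refine h1 ⟨hm', Or.inr ?_⟩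
      rw [Equiv.eq_symm_apply, h]
      rfl
    have h4 : ContinuousAt (fun y : ℝ =>
        (AddCircle.equivIco (1 : ℝ) 0 (g (y : AddCircle (1 : ℝ))) : ℝ)) x := by
      have h5 : ContinuousAt (fun z => (AddCircle.equivIco (1 : ℝ) 0 z : ℝ))
          (g (x : AddCircle (1 : ℝ))) :=
        continuousAt_subtype_val.comp (AddCircle.continuousAt_equivIco (1 : ℝ) 0 h3)
      have h6 : ContinuousAt (fun y : ℝ => g (y : AddCircle (1 : ℝ))) x :=
        ContinuousAt.comp (f := fun y : ℝ => (y : AddCircle (1 : ℝ))) h2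
          (AddCircle.continuous_mk' (1 : ℝ)).continuousAt
      exact ContinuousAt.comp (f := fun y : ℝ => g (y : AddCircle (1 : ℝ))) h5 h6
    refine h4.congr ?_
    filter_upwards [isOpen_Ioo.mem_nhds hm] with y hy
    exact (circHom_mem g ⟨hy.1.le, by rw [zero_add]; exact hy.2⟩).symm
  · have hopen : IsOpen (Icc (0 : ℝ) 1)ᶜ := isClosed_Icc.isOpen_compl
    have hxm : x ∈ (Icc (0 : ℝ) 1)ᶜ := by
      intro h
      exact hm ⟨lt_of_le_of_ne h.1 (Ne.symm h0), lt_of_le_of_ne h.2 h1'⟩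
    refine continuousAt_id.congr ?_
    filter_upwards [hopen.mem_nhds hxm] with y hy
    refine (circHom_not g fun h => hy ⟨h.1, ?_⟩).symm
    have := h.2
    rw [zero_add] at this
    exact this.le

theorem row_circle (H : ∀ (K : Type) [LinearOrder K] (G : Subgroup (Equiv.Perm K)),
      (∀ g ∈ G, ∃ P : Set (Set K), P.Finite ∧ (∀ x, ∃ C ∈ P, x ∈ C) ∧ ∀ C ∈ P, Good g C) → FPB G)
    (G : Subgroup (Equiv.Perm (AddCircle (1 : ℝ))))
    (hG : ∀ g ∈ G, {x | ¬ ContinuousAt g x}.Finite) : FPB G := by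
  refine fpb_of_inj (circHom.subgroupMap G) ?_ (row_real H (G.map circHom) ?_)
  · intro x y hxy
    exact Subtype.ext (circHom_inj (congrArg Subtype.val hxy))
  · rintro _ ⟨g, hg, rfl⟩
    exact circ_finite g (hG g hg)

end Vale.Agent.P192.H524
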