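import Vale.Agent.P192.H124.PMDefs
import Vale.Agent.P192.H663.Defs

/-!
# P192: bijections of the line with finitely many discontinuities are piecewise monotone
-/

namespace Vale.Agent.P192.H524

open Set PM

theorem mono_or_anti {f : ℝ → ℝ} {C : Set ℝ} (hC : C.OrdConnected) (hf : ContinuousOn f C)
    (hi : InjOn f C) : StrictMonoOn f C ∨ StrictAntiOn f C := by
  by_contra hcon
  push Not at hcon
  obtain ⟨h1, h2⟩ := hcon
  simp only [StrictMonoOn, StrictAntiOn] at h1 h2
  push Not at h1 h2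
  obtain ⟨a, ha, b, hb, hab, h1⟩ := h1
  obtain ⟨c, hc, d, hd, hcd, h2⟩ := h2
  have hsub : Icc (min a c) (max b d) ⊆ C := by
    refine hC.out ?_ ?_
    · rcases min_choice a c with h | h <;> rw [h] <;> assumption
    · rcases max_choice b d with h | h <;> rw [h] <;> assumption
  have hle : min a c ≤ max b d := (min_le_left a c).trans (hab.le.trans (le_max_left b d))
  have ha' : a ∈ Icc (min a c) (max b d) := ⟨min_le_left _ _, hab.le.trans (le_max_left _ _)⟩
  have hb' : b ∈ Icc (min a c) (max b d) := ⟨(min_le_left _ _).trans hab.le, le_max_left _ _⟩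
  have hc' : c ∈ Icc (min a c) (max b d) := ⟨min_le_right _ _, hcd.le.trans (le_max_right _ _)⟩
  have hd' : d ∈ Icc (min a c) (max b d) := ⟨(min_le_right _ _).trans hcd.le, le_max_right _ _⟩
  rcases ContinuousOn.strictMonoOn_of_injOn_Icc' hle (hf.mono hsub) (hi.mono hsub) with h | h
  · exact absurd (h ha' hb' hab) (not_lt.2 h1)
  · exact absurd (h hc' hd' hcd) (not_lt.2 h2)

theorem good_of_cont {f : ℝ → ℝ} {C : Set ℝ} (hC : C.OrdConnected) (hf : ContinuousOn f C)
    (hi : InjOn f C) : Good f C :=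
  ⟨hC, (hC.isPreconnected.image f hf).ordConnected, mono_or_anti hC hf hi⟩

theorem good_singleton (f : ℝ → ℝ) (d : ℝ) : Good f {d} := by
  refine ⟨ordConnected_singleton, by simpa using ordConnected_singleton, Or.inl ?_⟩
  intro x hx y hy hxy
  rw [mem_singleton_iff] at hx hy
  subst hx; subst hy
  exact absurd hxy (lt_irrefl _)

theorem real_pieces (g : Equiv.Perm ℝ) (hg : {x | ¬ ContinuousAt g x}.Finite) :
    ∃ P : Set (Set ℝ), P.Finite ∧ (∀ x, ∃ C ∈ P, x ∈ C) ∧ ∀ C ∈ P, Good g C := by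
  set D : Set ℝ := {x | ¬ ContinuousAt g x} with hD
  refine ⟨(fun S : Set ℝ => {x : ℝ | x ∉ D ∧ D ∩ Iio x = S}) '' (𝒫 D) ∪
    (fun d => {d}) '' D, (hg.finite_subsets.image _).union (hg.image _), ?_, ?_⟩
  · intro x
    by_cases hx : x ∈ D
    · exact ⟨{x}, Or.inr ⟨x, hx, rfl⟩, rfl⟩
    · exact ⟨_, Or.inl ⟨D ∩ Iio x, inter_subset_left, rfl⟩, hx, rfl⟩
  · rintro C (⟨S, hS, rfl⟩ | ⟨d, hd, rfl⟩)
    · refine good_of_cont ⟨?_⟩ ?_ g.injective.injOn
      · rintro x ⟨hx, hx2⟩ y ⟨hy, hy2⟩ z ⟨hxz, hzy⟩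
        have key : D ∩ Iio z ⊆ S := by
          rw [← hy2]
          exact fun w hw => ⟨hw.1, lt_of_lt_of_le hw.2 hzy⟩
        refine ⟨fun hz => ?_, Subset.antisymm key ?_⟩
        · rcases hzy.lt_or_eq with h | h
          · have : z ∈ D ∩ Iio x := by
              rw [hx2, ← hy2]
              exact ⟨hz, h⟩
            exact absurd this.2 (not_lt.2 hxz)
          · rw [h] at hz
            exact hy hz
        · rw [← hx2]
          exact fun w hw => ⟨hw.1, lt_of_lt_of_le hw.2 hxz⟩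
      · rintro x ⟨hx, -⟩
        have hx' : ContinuousAt g x := by
          by_contra h
          exact hx h
        exact hx'.continuousWithinAt
    · exact good_singleton g d

theorem row_real (H : ∀ (K : Type) [LinearOrder K] (G : Subgroup (Equiv.Perm K)),
      (∀ g ∈ G, ∃ P : Set (Set K), P.Finite ∧ (∀ x, ∃ C ∈ P, x ∈ C) ∧ ∀ C ∈ P, Good g C) → FPB G)
    (G : Subgroup (Equiv.Perm ℝ)) (hG : ∀ g ∈ G, {x | ¬ ContinuousAt g x}.Finite) : FPB G :=
  H ℝ G fun g hg => real_pieces g (hG g hg)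

end Vale.Agent.P192.H524
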